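import Vale.Agent.P178.Ring

namespace Vale.Agent.Results.P178.B_St

open Vale.Agent.P178

theorem result : ∃ (A : Type) (_ : CommRing A) (_ : IsDomain A), IsRegularLocalRing A ∧
    ∀ (F : Type) [Field F] [Algebra A F] [IsFractionRing A F],
      ¬ Function.Injective (K3Map (algebraMap A F)) :=
  ⟨AA, inferInstance, inferInstance, inferInstance,
    fun F _ _ _ => gersten_fails _ (IsFractionRing.injective AA F)⟩

end Vale.Agent.Results.P178.B_St
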